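import Mathlib

/-!
# Integer Lipschitz heights with two boundary arcs: definitions

`G` is a graph on a vertex set `V`; `Ap` and `Am` are the two sets of boundary vertices.
-/

namespace Vale.Agent.Lib.P153

variable {V : Type*}

/-- Admissible heights: every value is an odd integer, adjacent values differ by `0` or `2`
in absolute value, `h = 1` on `Ap` and `h = -1` on `Am`. -/
def Admissible (G : SimpleGraph V) (Ap Am : Set V) (h : V → ℤ) : Prop :=
  (∀ x, Odd (h x)) ∧ (∀ x y, G.Adj x y → |h x - h y| = 0 ∨ |h x - h y| = 2) ∧
    (∀ x ∈ Ap, h x = 1) ∧ (∀ x ∈ Am, h x = -1)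

/-- The negative cluster of `Am`: the vertices reached from a vertex of `Am` by a path of `G`
all of whose later vertices have negative height. -/
def NegCluster (G : SimpleGraph V) (Am : Set V) (h : V → ℤ) : Set V :=
  {y | ∃ a ∈ Am, Relation.ReflTransGen (fun u v => G.Adj u v ∧ h v < 0) a y}

/-- The plus side: the vertices reached from a vertex of `Ap` by a path of `G` all of whose
later vertices lie outside the negative cluster of `Am`. -/
def PlusSide (G : SimpleGraph V) (Ap Am : Set V) (h : V → ℤ) : Set V :=
  {x | ∃ a ∈ Ap, Relation.ReflTransGen (fun u v => G.Adj u v ∧ v ∉ NegCluster G Am h) a x}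

/-- The positive cluster of `Ap`: the vertices reached from a vertex of `Ap` by a path of `G`
all of whose later vertices have positive height. -/
def PosCluster (G : SimpleGraph V) (Ap : Set V) (h : V → ℤ) : Set V :=
  {y | ∃ a ∈ Ap, Relation.ReflTransGen (fun u v => G.Adj u v ∧ 0 < h v) a y}

/-- The minus side: the vertices reached from a vertex of `Am` by a path of `G` all of whose
later vertices lie outside the positive cluster of `Ap`. -/
def MinusSide (G : SimpleGraph V) (Ap Am : Set V) (h : V → ℤ) : Set V :=
  {x | ∃ a ∈ Am, Relation.ReflTransGen (fun u v => G.Adj u v ∧ v ∉ PosCluster G Ap h) a x}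

end Vale.Agent.Lib.P153
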