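import Vale.Agent.Lib.P153.Defs

/-!
# The reflection involution on the plus side
-/

namespace Vale.Agent.Lib.P153

open Classical

variable {V : Type*} {G : SimpleGraph V} {Ap Am : Set V} {h : V → ℤ}

theorem negCluster_neg (hadm : Admissible G Ap Am h) {y : V} (hy : y ∈ NegCluster G Am h) :
    h y < 0 := by
  obtain ⟨a, ha, hpath⟩ := hy
  rcases Relation.ReflTransGen.cases_tail hpath with heq | ⟨u, _, _, hv⟩
  · rw [heq, hadm.2.2.2 a ha]
    norm_num
  · exact hv

theorem plusSide_not_neg (hadm : Admissible G Ap Am h) {x : V}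
    (hx : x ∈ PlusSide G Ap Am h) : x ∉ NegCluster G Am h := by
  obtain ⟨a, ha, hpath⟩ := hx
  rcases Relation.ReflTransGen.cases_tail hpath with heq | ⟨u, _, _, hv⟩
  · intro hmem
    have h1 := negCluster_neg hadm hmem
    rw [heq, hadm.2.2.1 a ha] at h1
    norm_num at h1
  · exact hv

theorem mem_negCluster_of_adj {u v : V} (hu : u ∈ NegCluster G Am h) (hadj : G.Adj u v)
    (hv : h v < 0) : v ∈ NegCluster G Am h := by
  obtain ⟨a, ha, hpath⟩ := hu
  exact ⟨a, ha, hpath.tail ⟨hadj, hv⟩⟩

theorem mem_plusSide_of_adj {u v : V} (hu : u ∈ PlusSide G Ap Am h) (hadj : G.Adj u v)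
    (hv : v ∉ NegCluster G Am h) : v ∈ PlusSide G Ap Am h := by
  obtain ⟨a, ha, hpath⟩ := hu
  exact ⟨a, ha, hpath.tail ⟨hadj, hv⟩⟩

/-- across the boundary of the plus side the heights are exactly `1` and `-1` -/
theorem interface_values (hadm : Admissible G Ap Am h) {u v : V}
    (hu : u ∈ PlusSide G Ap Am h) (hv : v ∉ PlusSide G Ap Am h) (hadj : G.Adj u v) :
    h u = 1 ∧ h v = -1 := by
  have hvN : v ∈ NegCluster G Am h := by
    by_contra hcon
    exact hv (mem_plusSide_of_adj hu hadj hcon)
  have hvneg := negCluster_neg hadm hvN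
  have huN := plusSide_not_neg hadm hu
  have hunn : ¬ h u < 0 := fun hlt => huN (mem_negCluster_of_adj hvN hadj.symm hlt)
  obtain ⟨k, hk⟩ := hadm.1 u
  obtain ⟨m, hm⟩ := hadm.1 v
  have hlip := hadm.2.1 u v hadj
  have hpos : 0 < h u - h v := by omega
  rw [abs_of_pos hpos] at hlip
  omega

/-- the reflection `h ↦ 2 - h` on the plus side -/
noncomputable def flip (G : SimpleGraph V) (Ap Am : Set V) (h : V → ℤ) : V → ℤ :=
  fun v => if v ∈ PlusSide G Ap Am h then 2 - h v else h v

theorem negCluster_flip (hadm : Admissible G Ap Am h) :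
    NegCluster G Am (flip G Ap Am h) = NegCluster G Am h := by
  ext y
  constructor
  · rintro ⟨a, ha, hpath⟩
    induction hpath with
    | refl => exact ⟨a, ha, Relation.ReflTransGen.refl⟩
    | @tail u v _ hstep ih =>
      obtain ⟨hadj, hv⟩ := hstep
      by_cases hvP : v ∈ PlusSide G Ap Am h
      · exfalso
        have huP : u ∉ PlusSide G Ap Am h := fun huP => plusSide_not_neg hadm huP ih
        have hval := interface_values hadm hvP huP hadj.symm
        unfold flip at hv
        rw [if_pos hvP, hval.1] at hv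
        norm_num at hv
      · unfold flip at hv
        rw [if_neg hvP] at hv
        exact mem_negCluster_of_adj ih hadj hv
  · rintro ⟨a, ha, hpath⟩
    induction hpath with
    | refl => exact ⟨a, ha, Relation.ReflTransGen.refl⟩
    | @tail u v hprev hstep ih =>
      obtain ⟨hadj, hv⟩ := hstep
      have hvN : v ∈ NegCluster G Am h := ⟨a, ha, hprev.tail ⟨hadj, hv⟩⟩
      have hvP : v ∉ PlusSide G Ap Am h := fun hvP => plusSide_not_neg hadm hvP hvN
      refine mem_negCluster_of_adj ih hadj ?_
      unfold flip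
      rw [if_neg hvP]
      exact hv

theorem plusSide_flip (hadm : Admissible G Ap Am h) :
    PlusSide G Ap Am (flip G Ap Am h) = PlusSide G Ap Am h := by
  unfold PlusSide
  rw [negCluster_flip hadm]

theorem flip_admissible (hadm : Admissible G Ap Am h) :
    Admissible G Ap Am (flip G Ap Am h) := by
  refine ⟨fun x => ?_, fun x y hadj => ?_, fun x hx => ?_, fun x hx => ?_⟩
  · unfold flip
    obtain ⟨k, hk⟩ := hadm.1 x
    split_ifs
    · exact ⟨-k, by omega⟩
    · exact ⟨k, hk⟩
  · unfold flip
    by_cases hxP : x ∈ PlusSide G Ap Am h <;> by_cases hyP : y ∈ PlusSide G Ap Am h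
    · rw [if_pos hxP, if_pos hyP]
      have := hadm.2.1 x y hadj
      have e : 2 - h x - (2 - h y) = -(h x - h y) := by ring
      rw [e, abs_neg]
      exact this
    · rw [if_pos hxP, if_neg hyP]
      have hval := interface_values hadm hxP hyP hadj
      rw [hval.1, hval.2]
      right
      norm_num
    · rw [if_neg hxP, if_pos hyP]
      have hval := interface_values hadm hyP hxP hadj.symm
      rw [hval.1, hval.2]
      right
      norm_num
    · rw [if_neg hxP, if_neg hyP]
      exact hadm.2.1 x y hadj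
  · have hxP : x ∈ PlusSide G Ap Am h := ⟨x, hx, Relation.ReflTransGen.refl⟩
    unfold flip
    rw [if_pos hxP, hadm.2.2.1 x hx]
    norm_num
  · have hxN : x ∈ NegCluster G Am h := ⟨x, hx, Relation.ReflTransGen.refl⟩
    have hxP : x ∉ PlusSide G Ap Am h := fun hxP => plusSide_not_neg hadm hxP hxN
    unfold flip
    rw [if_neg hxP]
    exact hadm.2.2.2 x hx

theorem flip_flip (hadm : Admissible G Ap Am h) :
    flip G Ap Am (flip G Ap Am h) = h := by
  funext v
  have hP := plusSide_flip hadm
  by_cases hv : v ∈ PlusSide G Ap Am h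
  · have hv' : v ∈ PlusSide G Ap Am (flip G Ap Am h) := by rw [hP]; exact hv
    show (if v ∈ PlusSide G Ap Am (flip G Ap Am h) then 2 - flip G Ap Am h v
      else flip G Ap Am h v) = h v
    rw [if_pos hv']
    unfold flip
    rw [if_pos hv]
    ring
  · have hv' : v ∉ PlusSide G Ap Am (flip G Ap Am h) := by rw [hP]; exact hv
    show (if v ∈ PlusSide G Ap Am (flip G Ap Am h) then 2 - flip G Ap Am h v
      else flip G Ap Am h v) = h v
    rw [if_neg hv']
    unfold flip
    rw [if_neg hv]

/-- The plus-side identity: summed over all admissible heights, `h x - 1` restricted to the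
event that `x` lies on the plus side vanishes. -/
theorem plus_side_sum (G : SimpleGraph V) (Ap Am : Set V) (S : Finset (V → ℤ))
    (hS : ∀ h, h ∈ S ↔ Admissible G Ap Am h) (x : V) :
    ∑ h ∈ S, (if x ∈ PlusSide G Ap Am h then h x - 1 else 0) = 0 := by
  have hbij : ∑ h ∈ S, (if x ∈ PlusSide G Ap Am h then h x - 1 else 0) =
      ∑ h ∈ S, (if x ∈ PlusSide G Ap Am (flip G Ap Am h) then flip G Ap Am h x - 1 else 0) := by
    apply Finset.sum_nbij' (fun h => flip G Ap Am h) (fun h => flip G Ap Am h)
    · intro h hh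
      exact (hS _).mpr (flip_admissible ((hS h).mp hh))
    · intro h hh
      exact (hS _).mpr (flip_admissible ((hS h).mp hh))
    · intro h hh
      exact flip_flip ((hS h).mp hh)
    · intro h hh
      exact flip_flip ((hS h).mp hh)
    · intro h hh
      rw [flip_flip ((hS h).mp hh)]
  have hneg : ∑ h ∈ S, (if x ∈ PlusSide G Ap Am (flip G Ap Am h) then flip G Ap Am h x - 1
      else 0) = -∑ h ∈ S, (if x ∈ PlusSide G Ap Am h then h x - 1 else 0) := by
    rw [← Finset.sum_neg_distrib]
    apply Finset.sum_congr rfl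
    intro h hh
    rw [plusSide_flip ((hS h).mp hh)]
    by_cases hx : x ∈ PlusSide G Ap Am h
    · rw [if_pos hx, if_pos hx]
      unfold flip
      rw [if_pos hx]
      ring
    · rw [if_neg hx, if_neg hx]
      ring
  rw [hneg] at hbij
  linarith

end Vale.Agent.Lib.P153
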