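import Vale.Agent.Lib.P153.Flip

/-!
# The mirrored identity on the minus side, and the mean-height formula
-/

namespace Vale.Agent.Lib.P153

open Classical

variable {V : Type*} {G : SimpleGraph V} {Ap Am : Set V} {h : V → ℤ}

theorem admissible_neg (hadm : Admissible G Ap Am h) :
    Admissible G Am Ap (fun v => -h v) := by
  refine ⟨fun x => ?_, fun x y hadj => ?_, fun x hx => ?_, fun x hx => ?_⟩
  · exact (hadm.1 x).neg
  · have := hadm.2.1 x y hadj
    have e : -h x - -h y = -(h x - h y) := by ring
    rw [e, abs_neg]
    exact this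
  · show -h x = 1
    rw [hadm.2.2.2 x hx]
    norm_num
  · show -h x = -1
    rw [hadm.2.2.1 x hx]

theorem admissible_neg_iff : Admissible G Am Ap (fun v => -h v) ↔ Admissible G Ap Am h := by
  constructor
  · intro hadm
    have := admissible_neg hadm
    simpa using this
  · exact admissible_neg

theorem posCluster_eq (G : SimpleGraph V) (Ap : Set V) (h : V → ℤ) :
    PosCluster G Ap h = NegCluster G Ap (fun v => -h v) := by
  unfold PosCluster NegCluster
  simp only [Left.neg_neg_iff]

theorem minusSide_eq (G : SimpleGraph V) (Ap Am : Set V) (h : V → ℤ) :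
    MinusSide G Ap Am h = PlusSide G Am Ap (fun v => -h v) := by
  unfold MinusSide PlusSide
  rw [posCluster_eq]

/-- The minus-side identity. -/
theorem minus_side_sum (G : SimpleGraph V) (Ap Am : Set V) (S : Finset (V → ℤ))
    (hS : ∀ h, h ∈ S ↔ Admissible G Ap Am h) (x : V) :
    ∑ h ∈ S, (if x ∈ MinusSide G Ap Am h then h x + 1 else 0) = 0 := by
  have hinj : Function.Injective (fun (h : V → ℤ) (v : V) => -h v) := by
    intro h1 h2 he
    funext v
    have := congrFun he v
    simpa using this
  have hS' : ∀ h', h' ∈ S.image (fun (h : V → ℤ) (v : V) => -h v) ↔ Admissible G Am Ap h' := by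
    intro h'
    rw [Finset.mem_image]
    constructor
    · rintro ⟨h, hh, rfl⟩
      exact admissible_neg ((hS h).mp hh)
    · intro hadm
      refine ⟨fun v => -h' v, (hS _).mpr ?_, ?_⟩
      · have := admissible_neg hadm
        exact this
      · funext v
        simp
  have h1 := plus_side_sum G Am Ap (S.image (fun (h : V → ℤ) (v : V) => -h v)) hS' x
  rw [Finset.sum_image (fun a _ b _ hab => hinj hab)] at h1
  have h2 : ∑ h ∈ S, (if x ∈ MinusSide G Ap Am h then h x + 1 else 0) =
      -∑ h ∈ S, (if x ∈ PlusSide G Am Ap (fun v => -h v) then -h x - 1 else 0) := by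
    rw [← Finset.sum_neg_distrib]
    apply Finset.sum_congr rfl
    intro h _
    rw [minusSide_eq]
    split_ifs
    · ring
    · ring
  rw [h2, h1, neg_zero]

/-- If for every admissible `h` the vertex `x` lies on exactly one of the two sides, then the
sum of `h x` over all admissible heights is the number of heights with `x` on the plus side
minus the number of heights with `x` on the minus side. -/
theorem sum_height_eq (G : SimpleGraph V) (Ap Am : Set V) (S : Finset (V → ℤ))
    (hS : ∀ h, h ∈ S ↔ Admissible G Ap Am h) (x : V)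
    (hdual : ∀ h ∈ S, (x ∈ PlusSide G Ap Am h ↔ x ∉ MinusSide G Ap Am h)) :
    ∑ h ∈ S, h x = ((S.filter (fun h => x ∈ PlusSide G Ap Am h)).card : ℤ) -
      ((S.filter (fun h => x ∈ MinusSide G Ap Am h)).card : ℤ) := by
  have h1 := plus_side_sum G Ap Am S hS x
  have h2 := minus_side_sum G Ap Am S hS x
  have h3 : ∑ h ∈ S, h x = ∑ h ∈ S, ((if x ∈ PlusSide G Ap Am h then h x - 1 else 0) +
      (if x ∈ MinusSide G Ap Am h then h x + 1 else 0) +
      ((if x ∈ PlusSide G Ap Am h then 1 else 0) -
        (if x ∈ MinusSide G Ap Am h then 1 else 0))) := by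
    apply Finset.sum_congr rfl
    intro h hh
    have hd := hdual h hh
    by_cases hp : x ∈ PlusSide G Ap Am h
    · have hm : x ∉ MinusSide G Ap Am h := hd.mp hp
      rw [if_pos hp, if_neg hm, if_pos hp, if_neg hm]
      ring
    · have hm : x ∈ MinusSide G Ap Am h := by
        by_contra hcon
        exact hp (hd.mpr hcon)
      rw [if_neg hp, if_pos hm, if_neg hp, if_pos hm]
      ring
  rw [h3, Finset.sum_add_distrib, Finset.sum_add_distrib, h1, h2, Finset.sum_sub_distrib,
    Finset.card_filter, Finset.card_filter]
  push_cast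
  ring

end Vale.Agent.Lib.P153
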